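import Mathlib
import Vale.Agent.P298.H25.Det

/-!
# The delta invariant of a plane curve by one determinant

`anchor_curve`: for a plane curve with primitive branches `(t ^ e i, β i)` and an ideal `J` of finite
codimension all of whose elements have order `≥ d i` along the branches,
`2 * ∑ d i ≤ 2 * dim (S / J) + ∑ (ord P_z(γ i) - (e i - 1))`.
-/

open PowerSeries Module

namespace Vale.Agent.P298.H360

noncomputable section

/-! ### Block determinants -/

theorem det_block {ι : Type*} [Fintype ι] [DecidableEq ι] {n : ι → Type*} [∀ i, Fintype (n i)]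
    [∀ i, DecidableEq (n i)] {R : Type*} [CommRing R] (B : ∀ i, Matrix (n i) (n i) R) :
    (Matrix.blockDiagonal' B).det = ∏ i, (B i).det := by
  classical
  let b : (Σ i, n i) → Fin (Fintype.card ι) := fun p => Fintype.equivFin ι p.1
  have h : (Matrix.blockDiagonal' B).BlockTriangular b := by
    rintro ⟨i, a⟩ ⟨j, c⟩ hpq
    refine Matrix.blockDiagonal'_apply_ne _ _ _ ?_
    rintro rfl
    exact lt_irrefl _ hpq
  rw [h.det_fintype, ← Equiv.prod_comp (Fintype.equivFin ι)]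
  refine Finset.prod_congr rfl fun i _ => ?_
  let ε : n i ≃ {p : Σ i, n i // b p = Fintype.equivFin ι i} :=
    Equiv.ofBijective (fun a => ⟨⟨i, a⟩, rfl⟩) ⟨by
      intro a c hac
      simpa using hac, by
      rintro ⟨⟨j, a⟩, hj⟩
      obtain rfl : j = i := (Fintype.equivFin ι).injective hj
      exact ⟨a, rfl⟩⟩
  rw [← Matrix.det_submatrix_equiv_self ε]
  congr 1
  ext a c
  exact Matrix.blockDiagonal'_apply_eq _ _ _ _

/-! ### Orders -/

theorem le_order_rescale (c : ℂ) (f : PowerSeries ℂ) : f.order ≤ (rescale c f).order := by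
  refine PowerSeries.le_order _ _ fun i hi => ?_
  rw [coeff_rescale, coeff_of_lt_order i hi, mul_zero]

theorem order_rescale {c : ℂ} (hc : c ≠ 0) (f : PowerSeries ℂ) : (rescale c f).order = f.order := by
  refine le_antisymm ?_ (le_order_rescale c f)
  have h := le_order_rescale c⁻¹ (rescale c f)
  rwa [rescale_rescale, mul_inv_cancel₀ hc, rescale_one, RingHom.id_apply] at h

theorem two_order_vandermonde {n : ℕ} (v : Fin n → PowerSeries ℂ) :
    2 * (Matrix.vandermonde v).det.order = ∑ i, ∑ j ∈ {i}ᶜ, (v j - v i).order := by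
  rw [← Finset.sum_sum_Ioi_add_eq_sum_sum_off_diag (fun j i => (v j - v i).order),
    Matrix.det_vandermonde, order_prod, Finset.mul_sum]
  refine Finset.sum_congr rfl fun i _ => ?_
  rw [order_prod, Finset.mul_sum]
  refine Finset.sum_congr rfl fun j _ => ?_
  rw [two_mul, ← order_neg (v i - v j), neg_sub]

/-! ### Sections of `ℂ⟦t⟧` over `ℂ⟦t ^ e⟧` -/

/-- `sec e j (∑ a_m t ^ m) = ∑ a_(j + e l) y ^ l`. -/
def sec (e j : ℕ) : PowerSeries ℂ →ₗ[ℂ] PowerSeries ℂ where
  toFun f := PowerSeries.mk fun l => coeff (j + e * l) f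
  map_add' f g := by ext l; simp
  map_smul' c f := by ext l; simp

theorem coeff_sec (e j l : ℕ) (f : PowerSeries ℂ) : coeff l (sec e j f) = coeff (j + e * l) f := by
  simp [sec]

theorem sum_sec {e : ℕ} (he : e ≠ 0) (f : PowerSeries ℂ) :
    ∑ j : Fin e, X ^ (j : ℕ) * expand e he (sec e j f) = f := by
  ext n
  have hpos : 0 < e := Nat.pos_of_ne_zero he
  rw [map_sum, Finset.sum_eq_single (⟨n % e, Nat.mod_lt n hpos⟩ : Fin e)]
  · rw [coeff_X_pow_mul', if_pos (Nat.mod_le n e), coeff_expand, if_pos (Nat.dvd_sub_mod n)]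
    rw [coeff_sec]
    congr 2
    simp only
    rw [Nat.mul_div_cancel' (Nat.dvd_sub_mod n)]
    exact Nat.add_sub_cancel' (Nat.mod_le n e)
  · rintro ⟨j, hj⟩ - hne
    rw [coeff_X_pow_mul']
    split_ifs with h
    · rw [coeff_expand, if_neg]
      intro hd
      apply hne
      ext
      simp only at h ⊢
      obtain ⟨k, hk⟩ := hd
      simp only at hk
      have : n = j + e * k := by omega
      rw [this, Nat.add_mul_mod_self_left, Nat.mod_eq_of_lt hj]
    · rfl
  · simp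

/-! ### Conjugates -/

theorem rescale_expand {e : ℕ} (he : e ≠ 0) {c : ℂ} (hc : c ^ e = 1) (f : PowerSeries ℂ) :
    rescale c (expand e he f) = expand e he f := by
  ext n
  rw [coeff_rescale, coeff_expand]
  split_ifs with h
  · obtain ⟨k, rfl⟩ := h
    rw [pow_mul, hc, one_pow, one_mul]
  · rw [mul_zero]

section conj

variable {ι : Type*} (e : ι → ℕ) (N : ℕ) (ω : ι → ℂ)

/-- The `a`-th embedding `t ↦ ω i ^ a * s ^ (N / e i)`. -/
def θ (hNe : ∀ i, N / e i ≠ 0) (i : ι) (a : ℕ) : PowerSeries ℂ →+* PowerSeries ℂ :=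
  (expand (N / e i) (hNe i) : PowerSeries ℂ →ₐ[ℂ] PowerSeries ℂ).toRingHom.comp
    (rescale (ω i ^ a))

variable {e N ω}

theorem θ_apply (hNe : ∀ i, N / e i ≠ 0) (i : ι) (a : ℕ) (f : PowerSeries ℂ) :
    θ e N ω hNe i a f = expand (N / e i) (hNe i) (rescale (ω i ^ a) f) := rfl

theorem expand_congr {p q : ℕ} (h : p = q) (hp : p ≠ 0) (hq : q ≠ 0) (f : PowerSeries ℂ) :
    expand p hp f = expand q hq f := by
  subst h
  rfl

theorem θ_expand (hNe : ∀ i, N / e i ≠ 0) (he : ∀ i, e i ≠ 0) (hd : ∀ i, e i ∣ N) (hN : N ≠ 0)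
    (hω : ∀ i, IsPrimitiveRoot (ω i) (e i)) (i : ι) (a : ℕ) (f : PowerSeries ℂ) :
    θ e N ω hNe i a (expand (e i) (he i) f) = expand N hN f := by
  rw [θ_apply, rescale_expand]
  · rw [← expand_mul]
    exact expand_congr (Nat.div_mul_cancel (hd i)) _ _ _
  · rw [← pow_mul, mul_comm, pow_mul, (hω i).pow_eq_one, one_pow]

theorem θ_X (hNe : ∀ i, N / e i ≠ 0) (i : ι) (a : ℕ) :
    θ e N ω hNe i a X = C (ω i ^ a) * X ^ (N / e i) := by
  rw [θ_apply, rescale_X, map_mul, expand_C, expand_X]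

theorem order_θ (hNe : ∀ i, N / e i ≠ 0) {i : ι} (hω : ω i ≠ 0) (a : ℕ) (f : PowerSeries ℂ) :
    (θ e N ω hNe i a f).order = (N / e i) • f.order := by
  rw [θ_apply, order_expand, order_rescale (pow_ne_zero _ hω)]

end conj

section main

variable {ι : Type*} [Fintype ι] [DecidableEq ι] {e : ι → ℕ} {N : ℕ} {ω : ι → ℂ}

/-- The matrix of `1, z, z ^ 2, …` in the basis `t_i ^ j`. -/
def mat (e : ι → ℕ) (β : ι → PowerSeries ℂ) (σ : ((i : ι) × Fin (e i)) → ℕ) :
    Matrix ((i : ι) × Fin (e i)) ((i : ι) × Fin (e i)) (PowerSeries ℂ) :=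
  Matrix.of fun p q => sec (e p.1) p.2 (β p.1 ^ σ q)

theorem matrix_eq (hNe : ∀ i, N / e i ≠ 0) (he : ∀ i, e i ≠ 0) (hd : ∀ i, e i ∣ N) (hN : N ≠ 0)
    (hω : ∀ i, IsPrimitiveRoot (ω i) (e i)) (β : ι → PowerSeries ℂ)
    (σ : ((i : ι) × Fin (e i)) → ℕ) :
    (Matrix.of fun p q : (i : ι) × Fin (e i) => (θ e N ω hNe p.1 p.2 (β p.1)) ^ σ q) =
      Matrix.blockDiagonal' (fun i => Matrix.vandermonde
        (fun a : Fin (e i) => θ e N ω hNe i a X)) *
        (mat e β σ).map (expand N hN : PowerSeries ℂ →ₐ[ℂ] PowerSeries ℂ) := by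
  ext1 ⟨i, a⟩ q
  rw [Matrix.mul_apply, Fintype.sum_sigma, Finset.sum_eq_single i]
  · simp only [Matrix.of_apply, Matrix.blockDiagonal'_apply_eq, Matrix.vandermonde_apply,
      Matrix.map_apply, mat]
    rw [← map_pow]
    conv_lhs => rw [← sum_sec (he i) (β i ^ σ q), map_sum]
    refine Finset.sum_congr rfl fun j _ => ?_
    rw [map_mul, map_pow, θ_expand hNe he hd hN hω]
  · intro j _ hj
    refine Finset.sum_eq_zero fun x _ => ?_
    rw [Matrix.blockDiagonal'_apply_ne _ _ _ hj.symm, zero_mul]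
  · simp

theorem two_order_V {κ : Type*} [Fintype κ] [DecidableEq κ] {n : ℕ} (σ : κ ≃ Fin n)
    (z : κ → PowerSeries ℂ) (hz : Function.Injective z) (Q : Polynomial (PowerSeries ℂ))
    (hQ : Q.Monic) (hdeg : Q.natDegree = n) (hroot : ∀ p, Q.eval (z p) = 0) :
    2 * (Matrix.of fun p q : κ => z p ^ (σ q : ℕ)).det.order =
      ∑ p, (Q.derivative.eval (z p)).order := by
  set v : Fin n → PowerSeries ℂ := fun a => z (σ.symm a) with hv
  have hvinj : Function.Injective v := hz.comp σ.symm.injective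
  have h1 : (Matrix.of fun p q : κ => z p ^ (σ q : ℕ)) = (Matrix.vandermonde v).submatrix σ σ := by
    ext1 p q
    simp [hv, Matrix.vandermonde_apply]
  rw [h1, Matrix.det_submatrix_equiv_self, two_order_vandermonde]
  have hQn : Q = Lagrange.nodal Finset.univ v := by
    refine Polynomial.eq_of_degree_sub_lt_of_eval_index_eq (s := Finset.univ) (v := v)
      hvinj.injOn ?_ ?_
    · have hd : Q.degree = (Lagrange.nodal Finset.univ v).degree := by
        rw [Lagrange.degree_nodal, Polynomial.degree_eq_natDegree hQ.ne_zero, hdeg]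
        simp
      have h2 := Polynomial.degree_sub_lt_left hd hQ.ne_zero (by
        rw [hQ.leadingCoeff, Lagrange.nodal_monic.leadingCoeff])
      refine h2.trans_le ?_
      rw [Polynomial.degree_eq_natDegree hQ.ne_zero, hdeg]
      simp
    · intro a _
      rw [Lagrange.eval_nodal_at_node (Finset.mem_univ a)]
      exact hroot _
  rw [← Equiv.sum_comp σ.symm]
  refine Finset.sum_congr rfl fun a _ => ?_
  have h3 : Polynomial.eval (v a) (Polynomial.derivative Q) =
      ∏ b ∈ Finset.univ.erase a, (v a - v b) := by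
    rw [hQn, Lagrange.eval_nodal_derivative_eval_node_eq (Finset.mem_univ a), Lagrange.eval_nodal]
  rw [show z (σ.symm a) = v a from rfl, h3, order_prod]
  have h4 : ({a} : Finset (Fin n))ᶜ = Finset.univ.erase a := by
    ext b; simp
  rw [h4]
  refine Finset.sum_congr rfl fun b _ => ?_
  rw [← order_neg (v b - v a), neg_sub]

omit [Fintype ι] [DecidableEq ι] in
theorem two_order_W (hNe : ∀ i, N / e i ≠ 0) (hd : ∀ i, e i ∣ N)
    (hω : ∀ i, IsPrimitiveRoot (ω i) (e i)) (i : ι) :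
    2 * (Matrix.vandermonde (fun a : Fin (e i) => θ e N ω hNe i a X)).det.order =
      ((N * (e i - 1) : ℕ) : ℕ∞) := by
  rw [two_order_vandermonde]
  have h1 : ∀ a : Fin (e i), ∀ b ∈ ({a} : Finset (Fin (e i)))ᶜ,
      (θ e N ω hNe i b X - θ e N ω hNe i a X).order = ((N / e i : ℕ) : ℕ∞) := by
    intro a b hb
    rw [θ_X, θ_X, ← sub_mul, ← map_sub, order_mul, order_X_pow]
    have hne : ω i ^ (b : ℕ) - ω i ^ (a : ℕ) ≠ 0 := by
      rw [sub_ne_zero]
      intro h
      have := (hω i).pow_inj b.2 a.2 h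
      simp only [Finset.mem_compl, Finset.mem_singleton] at hb
      exact hb (Fin.ext this)
    have h0 : (C (ω i ^ (b : ℕ) - ω i ^ (a : ℕ)) : PowerSeries ℂ).order = 0 := by
      refine order_zero_of_unit ?_
      exact (IsUnit.mk0 _ hne).map C
    rw [h0, zero_add]
  rw [Finset.sum_congr rfl fun a _ => Finset.sum_congr rfl (h1 a)]
  simp only [Finset.sum_const, Finset.card_compl, Fintype.card_fin, Finset.card_singleton,
    Finset.card_univ, nsmul_eq_mul]
  rw [← mul_assoc]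
  have : ((e i : ℕ) : ℕ∞) * ((e i - 1 : ℕ) : ℕ∞) * ((N / e i : ℕ) : ℕ∞) =
      ((e i * (e i - 1) * (N / e i) : ℕ) : ℕ∞) := by push_cast; rfl
  rw [this]
  congr 1
  calc e i * (e i - 1) * (N / e i) = (e i * (N / e i)) * (e i - 1) := by ring
    _ = N * (e i - 1) := by rw [Nat.mul_div_cancel' (hd i)]

theorem deriv_ne_zero {κ : Type*} [Fintype κ] [DecidableEq κ]
    (z : κ → PowerSeries ℂ) (hz : Function.Injective z) (Q : Polynomial (PowerSeries ℂ))
    (hQ : Q.Monic) (hdeg : Q.natDegree = Fintype.card κ) (hroot : ∀ p, Q.eval (z p) = 0) (p : κ) :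
    Q.derivative.eval (z p) ≠ 0 := by
  have hQn : Q = Lagrange.nodal Finset.univ z := by
    refine Polynomial.eq_of_degree_sub_lt_of_eval_index_eq (s := Finset.univ) (v := z)
      hz.injOn ?_ ?_
    · have hd : Q.degree = (Lagrange.nodal Finset.univ z).degree := by
        rw [Lagrange.degree_nodal, Polynomial.degree_eq_natDegree hQ.ne_zero, hdeg]
        simp
      have h2 := Polynomial.degree_sub_lt_left hd hQ.ne_zero (by
        rw [hQ.leadingCoeff, Lagrange.nodal_monic.leadingCoeff])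
      refine h2.trans_le ?_
      rw [Polynomial.degree_eq_natDegree hQ.ne_zero, hdeg]
      simp
    · intro a _
      rw [Lagrange.eval_nodal_at_node (Finset.mem_univ a)]
      exact hroot _
  rw [hQn, Lagrange.eval_nodal_derivative_eval_node_eq (Finset.mem_univ p), Lagrange.eval_nodal]
  refine Finset.prod_ne_zero_iff.2 fun q hq => ?_
  rw [sub_ne_zero]
  intro h
  exact (Finset.mem_erase.1 hq).1 (hz h).symm

/-- `2 * ord det M + ∑ (e i - 1) = ∑ ord P_z(γ i)`. -/
theorem two_delta (he : ∀ i, e i ≠ 0) (hN : N ≠ 0) (hd : ∀ i, e i ∣ N)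
    (hω : ∀ i, IsPrimitiveRoot (ω i) (e i)) (β : ι → PowerSeries ℂ)
    (hNe : ∀ i, N / e i ≠ 0)
    (hinj : Function.Injective (fun p : (i : ι) × Fin (e i) => θ e N ω hNe p.1 p.2 (β p.1)))
    (P : Polynomial (PowerSeries ℂ)) (hP : P.Monic) {n : ℕ} (hdeg : P.natDegree = n)
    (σ : ((i : ι) × Fin (e i)) ≃ Fin n)
    (hroot : ∀ i, P.eval₂ (expand (e i) (he i) : PowerSeries ℂ →ₐ[ℂ] PowerSeries ℂ).toRingHom
      (β i) = 0) :
    2 * (mat e β (fun q => (σ q : ℕ))).det.order + ∑ i, ((e i - 1 : ℕ) : ℕ∞) =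
      ∑ i, (P.derivative.eval₂ (expand (e i) (he i) : PowerSeries ℂ →ₐ[ℂ] PowerSeries ℂ).toRingHom
        (β i)).order := by
  classical
  set z : (i : ι) × Fin (e i) → PowerSeries ℂ := fun p => θ e N ω hNe p.1 p.2 (β p.1) with hz
  set EN : PowerSeries ℂ →+* PowerSeries ℂ :=
    (expand N hN : PowerSeries ℂ →ₐ[ℂ] PowerSeries ℂ).toRingHom with hEN
  have hω0 : ∀ i, ω i ≠ 0 := fun i => (hω i).ne_zero (he i)
  have hcomp : ∀ (Q : Polynomial (PowerSeries ℂ)) (i : ι) (a : Fin (e i)),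
      (Q.map EN).eval (z ⟨i, a⟩) = θ e N ω hNe i a
        (Q.eval₂ (expand (e i) (he i) : PowerSeries ℂ →ₐ[ℂ] PowerSeries ℂ).toRingHom (β i)) := by
    intro Q i a
    rw [Polynomial.hom_eval₂, Polynomial.eval_map]
    congr 1
    ext1 f
    exact (θ_expand hNe he hd hN hω i a f).symm
  have h1 := two_order_V σ z hinj (P.map EN) (hP.map EN) (by rw [hP.natDegree_map, hdeg]) (by
    rintro ⟨i, a⟩
    rw [hcomp, hroot, map_zero])
  have h2 : (Matrix.of fun p q : (i : ι) × Fin (e i) => z p ^ (σ q : ℕ)) =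
      Matrix.blockDiagonal' (fun i => Matrix.vandermonde
        (fun a : Fin (e i) => θ e N ω hNe i a X)) *
        (mat e β (fun q => (σ q : ℕ))).map (expand N hN : PowerSeries ℂ →ₐ[ℂ] PowerSeries ℂ) :=
    matrix_eq hNe he hd hN hω β _
  have h3 : ((mat e β (fun q => (σ q : ℕ))).map
      (expand N hN : PowerSeries ℂ →ₐ[ℂ] PowerSeries ℂ)).det =
      expand N hN (mat e β (fun q => (σ q : ℕ))).det :=
    ((AlgHom.map_det (expand N hN : PowerSeries ℂ →ₐ[ℂ] PowerSeries ℂ) _)).symm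
  rw [h2, Matrix.det_mul, order_mul, h3, order_expand, det_block, order_prod, mul_add,
    Finset.mul_sum, Finset.sum_congr rfl fun i _ => two_order_W hNe hd hω i,
    Fintype.sum_sigma] at h1
  have h4 : ∀ i, ∑ a : Fin (e i), (Polynomial.eval (z ⟨i, a⟩)
      (Polynomial.derivative (P.map EN))).order = N * (P.derivative.eval₂
        (expand (e i) (he i) : PowerSeries ℂ →ₐ[ℂ] PowerSeries ℂ).toRingHom (β i)).order := by
    intro i
    have h5 : ∀ a : Fin (e i), (Polynomial.eval (z ⟨i, a⟩)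
      (Polynomial.derivative (P.map EN))).order = (N / e i) • (P.derivative.eval₂
        (expand (e i) (he i) : PowerSeries ℂ →ₐ[ℂ] PowerSeries ℂ).toRingHom (β i)).order := by
      intro a
      rw [Polynomial.derivative_map, hcomp, order_θ hNe (hω0 i)]
    rw [Finset.sum_congr rfl fun a _ => h5 a]
    simp only [Finset.sum_const, Finset.card_univ, Fintype.card_fin, nsmul_eq_mul]
    rw [← mul_assoc, ← Nat.cast_mul, Nat.mul_div_cancel' (hd i)]
  rw [Finset.sum_congr rfl fun i _ => h4 i, ← Finset.mul_sum] at h1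
  have hNt : (N : ℕ∞) ≠ ⊤ := ENat.natCast_ne_top N
  have hN0 : (N : ℕ∞) ≠ 0 := by exact_mod_cast hN
  have h6 : (N : ℕ∞) * (2 * (mat e β (fun q => (σ q : ℕ))).det.order +
      ∑ i, ((e i - 1 : ℕ) : ℕ∞)) = N * ∑ i, (P.derivative.eval₂
        (expand (e i) (he i) : PowerSeries ℂ →ₐ[ℂ] PowerSeries ℂ).toRingHom (β i)).order := by
    have e1 : (N : ℕ∞) * ∑ i, ((e i - 1 : ℕ) : ℕ∞) = ∑ i, ((N * (e i - 1) : ℕ) : ℕ∞) := by
      rw [Finset.mul_sum]
      exact Finset.sum_congr rfl fun i _ => (Nat.cast_mul _ _).symm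
    have e2 : (N : ℕ∞) * (2 * (mat e β (fun q => (σ q : ℕ))).det.order) =
        2 * (N • (mat e β (fun q => (σ q : ℕ))).det.order) := by
      rw [nsmul_eq_mul]
      ring
    rw [← h1, mul_add, e1, e2, add_comm]
  exact le_antisymm ((ENat.mul_le_mul_left_iff hN0 hNt).1 h6.le)
    ((ENat.mul_le_mul_left_iff hN0 hNt).1 h6.ge)

end main

/-! ### The colength inequality -/

section colength

variable {ι : Type*} [Fintype ι] [DecidableEq ι] (e : ι → ℕ) (he : ∀ i, e i ≠ 0) (d : ι → ℕ)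

/-- From the coordinates in the basis `t_i ^ j` to `∏ ℂ⟦t_i⟧`. -/
def recon : (((i : ι) × Fin (e i)) → PowerSeries ℂ) →ₗ[ℂ] (ι → PowerSeries ℂ) where
  toFun u i := ∑ j : Fin (e i), X ^ (j : ℕ) * expand (e i) (he i) (u ⟨i, j⟩)
  map_add' u v := by
    ext1 i
    simp only [Pi.add_apply, map_add, mul_add, Finset.sum_add_distrib]
  map_smul' c u := by
    ext1 i
    simp only [Pi.smul_apply, map_smul, RingHom.id_apply, mul_smul_comm, Finset.smul_sum]

/-- The coefficients of order `< d i`. -/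
def cf : (ι → PowerSeries ℂ) →ₗ[ℂ] (((i : ι) × Fin (d i)) → ℂ) where
  toFun v p := coeff (p.2 : ℕ) (v p.1)
  map_add' u v := by ext1 p; simp
  map_smul' c u := by ext1 p; simp

omit [Fintype ι] [DecidableEq ι] in
theorem recon_surj : Function.Surjective (recon e he) := by
  intro v
  refine ⟨fun p => sec (e p.1) p.2 (v p.1), ?_⟩
  ext1 i
  exact sum_sec (he i) (v i)

omit [Fintype ι] [DecidableEq ι] in
theorem cf_surj : Function.Surjective (cf d) := by
  intro w
  refine ⟨fun i => PowerSeries.mk fun l => if h : l < d i then w ⟨i, l, h⟩ else 0, ?_⟩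
  ext1 ⟨i, l⟩
  simp [cf]

theorem expand_coe {m : ℕ} (hm : m ≠ 0) (p : Polynomial ℂ) :
    expand m hm (p : PowerSeries ℂ) = Polynomial.aeval (X ^ m : PowerSeries ℂ) p := by
  have h : (expand m hm : PowerSeries ℂ →ₐ[ℂ] PowerSeries ℂ).comp
      (Polynomial.coeToPowerSeries.algHom (R := ℂ) ℂ) =
        Polynomial.aeval (X ^ m : PowerSeries ℂ) := by
    refine Polynomial.algHom_ext ?_
    simp
  have := DFunLike.congr_fun h p
  simpa using this

theorem X_pow_dvd_sub_trunc (D : ℕ) (a : PowerSeries ℂ) :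
    (X : PowerSeries ℂ) ^ D ∣ a - (trunc D a : PowerSeries ℂ) := by
  rw [X_pow_dvd_iff]
  intro m hm
  rw [map_sub, Polynomial.coeff_coe, coeff_trunc, if_pos hm, sub_self]

variable {e he d} (β : ι → PowerSeries ℂ)

omit [DecidableEq ι] in
theorem recon_mat (σ : ((i : ι) × Fin (e i)) → ℕ) (a : ((i : ι) × Fin (e i)) → PowerSeries ℂ)
    (i : ι) : recon e he ((mat e β σ).mulVec a) i =
      ∑ q, β i ^ σ q * expand (e i) (he i) (a q) := by
  have h : ∀ q, β i ^ σ q * expand (e i) (he i) (a q) = ∑ j : Fin (e i),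
      X ^ (j : ℕ) * expand (e i) (he i) (sec (e i) j (β i ^ σ q) * a q) := by
    intro q
    conv_lhs => rw [← sum_sec (he i) (β i ^ σ q), Finset.sum_mul]
    refine Finset.sum_congr rfl fun j _ => ?_
    rw [map_mul, mul_assoc]
  rw [Finset.sum_congr rfl fun q _ => h q, Finset.sum_comm]
  change ∑ j : Fin (e i), X ^ (j : ℕ) * expand (e i) (he i) _ = _
  refine Finset.sum_congr rfl fun j _ => ?_
  rw [← Finset.mul_sum, ← map_sum]
  rfl

/-- The codimension estimate. -/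
theorem sum_le_finrank (he : ∀ i, e i ≠ 0) (σ : ((i : ι) × Fin (e i)) → ℕ)
    (hdet : (mat e β σ).det ≠ 0)
    {S : Type*} [CommRing S] [Algebra ℂ S] (ψ : ι → S →ₐ[ℂ] PowerSeries ℂ) (Y Z : S)
    (hY : ∀ i, ψ i Y = X ^ e i) (hZ : ∀ i, ψ i Z = β i) (J : Ideal S)
    [Module.Finite ℂ (S ⧸ J)] (hJ : ∀ h ∈ J, ∀ i, X ^ d i ∣ ψ i h) :
    ∑ i, d i ≤ finrank ℂ (S ⧸ J) + (mat e β σ).det.order.toNat := by
  classical
  let s : S →ₗ[ℂ] (((i : ι) × Fin (d i)) → ℂ) :=
    cf d ∘ₗ LinearMap.pi fun i => (ψ i).toLinearMap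
  have hs : ∀ h i l, s h ⟨i, l⟩ = coeff (l : ℕ) (ψ i h) := fun h i l => rfl
  have hker : J.restrictScalars ℂ ≤ LinearMap.ker s := by
    intro h hh
    rw [LinearMap.mem_ker]
    ext1 ⟨i, l⟩
    rw [hs]
    exact X_pow_dvd_iff.1 (hJ h hh i) _ l.2
  let s' : (S ⧸ J) →ₗ[ℂ] (((i : ι) × Fin (d i)) → ℂ) :=
    (J.restrictScalars ℂ).liftQ s hker ∘ₗ
      (Submodule.Quotient.restrictScalarsEquiv ℂ J).symm.toLinearMap
  have hrange : LinearMap.range s ≤ LinearMap.range s' := by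
    rintro _ ⟨h, rfl⟩
    exact ⟨Submodule.Quotient.mk h, rfl⟩
  have h1 : finrank ℂ (LinearMap.range s) ≤ finrank ℂ (S ⧸ J) :=
    (Submodule.finrank_mono hrange).trans (LinearMap.finrank_range_le s')
  -- the lattice
  let T : (((i : ι) × Fin (e i)) → PowerSeries ℂ) →ₗ[PowerSeries ℂ]
      (((i : ι) × Fin (e i)) → PowerSeries ℂ) := Matrix.toLin' (mat e β σ)
  have hT : LinearMap.det T ≠ 0 := by
    rwa [LinearMap.det_toLin']
  obtain ⟨hfin, hrk⟩ := H25.finrank_of_det_ne_zero (K := ℂ) T hT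
  rw [LinearMap.det_toLin'] at hrk
  let R : Submodule ℂ (((i : ι) × Fin (e i)) → PowerSeries ℂ) :=
    (LinearMap.range T).restrictScalars ℂ
  let q : (((i : ι) × Fin (e i)) → PowerSeries ℂ) →ₗ[ℂ] (((i : ι) × Fin (d i)) → ℂ) :=
    cf d ∘ₗ recon e he
  have hq : Function.Surjective q := (cf_surj d).comp (recon_surj e he)
  have h2 : R.map q ≤ LinearMap.range s := by
    rintro _ ⟨_, ⟨a, rfl⟩, rfl⟩
    refine ⟨∑ p, Polynomial.aeval Y (trunc (∑ i, d i) (a p)) * Z ^ σ p, ?_⟩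
    ext1 ⟨i, l⟩
    rw [hs]
    change _ = coeff (l : ℕ) (recon e he ((mat e β σ).mulVec a) i)
    rw [recon_mat, ← sub_eq_zero, ← map_sub]
    refine (X_pow_dvd_iff (n := d i)).1 ?_ _ l.2
    rw [map_sum, ← Finset.sum_sub_distrib]
    refine Finset.dvd_sum fun p _ => ?_
    rw [map_mul, map_pow, hZ, ← Polynomial.aeval_algHom_apply, hY, ← expand_coe (he i), mul_comm,
      ← mul_sub, ← map_sub]
    refine Dvd.dvd.mul_left ?_ _
    obtain ⟨b, hb⟩ := X_pow_dvd_sub_trunc (∑ i, d i) (a p)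
    rw [← neg_sub, hb, map_neg, map_mul, map_pow, expand_X, ← pow_mul]
    refine Dvd.dvd.neg_right ?_
    refine Dvd.dvd.mul_right (pow_dvd_pow _ ?_) _
    calc d i ≤ ∑ i, d i := Finset.single_le_sum (fun _ _ => Nat.zero_le _) (Finset.mem_univ i)
      _ ≤ e i * ∑ i, d i := Nat.le_mul_of_pos_left _ (Nat.pos_of_ne_zero (he i))
  have hfinR : Module.Finite ℂ ((((i : ι) × Fin (e i)) → PowerSeries ℂ) ⧸ R) :=
    Module.Finite.equiv (Submodule.Quotient.restrictScalarsEquiv ℂ (LinearMap.range T)).symm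
  have hrkR : finrank ℂ ((((i : ι) × Fin (e i)) → PowerSeries ℂ) ⧸ R) =
      (mat e β σ).det.order.toNat := by
    rw [← hrk]
    exact (Submodule.Quotient.restrictScalarsEquiv ℂ (LinearMap.range T)).finrank_eq
  have h3 : finrank ℂ ((((i : ι) × Fin (d i)) → ℂ) ⧸ R.map q) ≤
      (mat e β σ).det.order.toNat := by
    rw [← hrkR]
    refine LinearMap.finrank_le_finrank_of_surjective
      (f := R.mapQ (R.map q) q (Submodule.le_comap_map _ _)) ?_
    intro y
    obtain ⟨w, rfl⟩ := Submodule.Quotient.mk_surjective _ y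
    obtain ⟨u, rfl⟩ := hq w
    exact ⟨Submodule.Quotient.mk u, rfl⟩
  have h4 := Submodule.finrank_quotient_add_finrank (R.map q)
  have h5 : finrank ℂ (((i : ι) × Fin (d i)) → ℂ) = ∑ i, d i := by
    rw [Module.finrank_fintype_fun_eq_card, Fintype.card_sigma]
    simp
  have h6 := Submodule.finrank_mono h2
  omega

end colength

section anchor

variable {ι : Type*} [Fintype ι] (e : ι → ℕ) (he : ∀ i, 0 < e i) (β : ι → PowerSeries ℂ)
  (P : Polynomial (PowerSeries ℂ))

/-- `P (t ^ e i, β i)`. -/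
def onBranch (i : ι) (Q : Polynomial (PowerSeries ℂ)) : PowerSeries ℂ :=
  Q.eval₂ (expand (e i) (he i).ne' : PowerSeries ℂ →ₐ[ℂ] PowerSeries ℂ).toRingHom (β i)

/-- `2 δ + ∑ (e i - 1) = ∑ ord P_z(γ i)` together with the colength inequality. -/
theorem anchor_aux (hP : P.Monic) (hdeg : P.natDegree = ∑ i, e i)
    (hroot : ∀ i, onBranch e he β i P = 0) {N : ℕ} (hN : N ≠ 0) (hNe : ∀ i, e i ∣ N)
    {ω : ι → ℂ} (hω : ∀ i, IsPrimitiveRoot (ω i) (e i))
    (hinj : Function.Injective (fun p : (i : ι) × Fin (e i) =>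
      expand (N / e p.1) (Nat.div_ne_zero_iff_of_dvd (hNe p.1) |>.2 ⟨hN, (he p.1).ne'⟩)
        (rescale (ω p.1 ^ (p.2 : ℕ)) (β p.1)))) :
    ∃ δ : ℕ, 2 * δ + ∑ i, (e i - 1) = ∑ i, (onBranch e he β i P.derivative).order.toNat ∧
      (∀ i, onBranch e he β i P.derivative ≠ 0) ∧
      ∀ (d : ι → ℕ) (S : Type*) [CommRing S] [Algebra ℂ S] (ψ : ι → S →ₐ[ℂ] PowerSeries ℂ)
        (Y Z : S) (_ : ∀ i, ψ i Y = X ^ e i) (_ : ∀ i, ψ i Z = β i) (J : Ideal S)
        [Module.Finite ℂ (S ⧸ J)] (_ : ∀ h ∈ J, ∀ i, X ^ d i ∣ ψ i h),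
        ∑ i, d i ≤ finrank ℂ (S ⧸ J) + δ := by
  classical
  have hcard : Fintype.card ((i : ι) × Fin (e i)) = ∑ i, e i := by
    rw [Fintype.card_sigma]
    simp
  let σ : ((i : ι) × Fin (e i)) ≃ Fin (∑ i, e i) :=
    Fintype.equivFinOfCardEq hcard
  have hNe' : ∀ i, N / e i ≠ 0 := fun i =>
    Nat.div_ne_zero_iff_of_dvd (hNe i) |>.2 ⟨hN, (he i).ne'⟩
  have h := two_delta (e := e) (N := N) (ω := ω) (fun i => (he i).ne') hN hNe hω β hNe' hinj P hP
    hdeg σ hroot
  have hfin : ∀ i, onBranch e he β i P.derivative ≠ 0 := by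
    intro i h0
    let EN : PowerSeries ℂ →+* PowerSeries ℂ :=
      (expand N hN : PowerSeries ℂ →ₐ[ℂ] PowerSeries ℂ).toRingHom
    have hcomp : ∀ (Q : Polynomial (PowerSeries ℂ)) (i : ι) (a : Fin (e i)),
        (Q.map EN).eval (θ e N ω hNe' i a (β i)) = θ e N ω hNe' i a (onBranch e he β i Q) := by
      intro Q i a
      rw [onBranch, Polynomial.hom_eval₂, Polynomial.eval_map]
      congr 1
      ext1 f
      exact (θ_expand hNe' (fun i => (he i).ne') hNe hN hω i a f).symm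
    have h1 := deriv_ne_zero (κ := (i : ι) × Fin (e i)) (fun p => θ e N ω hNe' p.1 p.2 (β p.1))
      hinj (P.map EN) (hP.map EN) (by rw [hP.natDegree_map, hdeg, hcard]) (by
        rintro ⟨j, a⟩
        rw [hcomp, hroot, map_zero]) ⟨i, ⟨0, he i⟩⟩
    apply h1
    rw [Polynomial.derivative_map, hcomp, h0, map_zero]
  have hsum : ∑ i, (onBranch e he β i P.derivative).order =
      ((∑ i, (onBranch e he β i P.derivative).order.toNat : ℕ) : ℕ∞) := by
    rw [Nat.cast_sum]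
    refine Finset.sum_congr rfl fun i _ => ?_
    rw [ENat.natCast_toNat]
    simpa [PowerSeries.order_eq_top] using hfin i
  change 2 * (mat e β (fun q => (σ q : ℕ))).det.order + ∑ i, ((e i - 1 : ℕ) : ℕ∞) =
      ∑ i, (onBranch e he β i P.derivative).order at h
  have hdet : (mat e β (fun q => (σ q : ℕ))).det ≠ 0 := by
    intro h0
    rw [h0, PowerSeries.order_zero, hsum, ENat.mul_top (by norm_num), top_add] at h
    exact ENat.top_ne_natCast _ h
  refine ⟨(mat e β (fun q => (σ q : ℕ))).det.order.toNat, ?_, hfin, ?_⟩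
  · have h2 : ((mat e β (fun q => (σ q : ℕ))).det.order.toNat : ℕ∞) =
        (mat e β (fun q => (σ q : ℕ))).det.order := by
      rw [ENat.natCast_toNat]
      simpa [PowerSeries.order_eq_top] using hdet
    rw [← h2, hsum, ← Nat.cast_sum] at h
    exact_mod_cast h
  · intro d S _ _ ψ Y Z hY hZ J _ hJ
    exact sum_le_finrank β (fun i => (he i).ne') _ hdet ψ Y Z hY hZ J hJ

/-- **Anchor inequality for plane curves** (form agreed with helper766, note 6158). -/
theorem anchor_curve (hP : P.Monic) (hdeg : P.natDegree = ∑ i, e i)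
    (hroot : ∀ i, onBranch e he β i P = 0) {N : ℕ} (hN : N ≠ 0) (hNe : ∀ i, e i ∣ N)
    {ω : ι → ℂ} (hω : ∀ i, IsPrimitiveRoot (ω i) (e i))
    (hinj : Function.Injective (fun p : (i : ι) × Fin (e i) =>
      expand (N / e p.1) (Nat.div_ne_zero_iff_of_dvd (hNe p.1) |>.2 ⟨hN, (he p.1).ne'⟩)
        (rescale (ω p.1 ^ (p.2 : ℕ)) (β p.1))))
    {S : Type*} [CommRing S] [Algebra ℂ S] (ψ : ι → S →ₐ[ℂ] PowerSeries ℂ) (Y Z : S)
    (hY : ∀ i, ψ i Y = X ^ e i) (hZ : ∀ i, ψ i Z = β i) (J : Ideal S)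
    [Module.Finite ℂ (S ⧸ J)] (d : ι → ℕ) (hJ : ∀ h ∈ J, ∀ i, X ^ d i ∣ ψ i h) :
    2 * ∑ i, (d i : ℤ) ≤ 2 * (finrank ℂ (S ⧸ J) : ℤ) +
      ∑ i, (((onBranch e he β i P.derivative).order.toNat : ℤ) - ((e i : ℤ) - 1)) := by
  obtain ⟨δ, h1, -, h2⟩ := anchor_aux e he β P hP hdeg hroot hN hNe hω hinj
  have h3 := h2 d S ψ Y Z hY hZ J hJ
  have h4 : (2 * (δ : ℤ)) = ∑ i, (((onBranch e he β i P.derivative).order.toNat : ℤ) -
      ((e i : ℤ) - 1)) := by
    rw [Finset.sum_sub_distrib]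
    have h5 : ∑ i, ((e i : ℤ) - 1) = ((∑ i, (e i - 1) : ℕ) : ℤ) := by
      push_cast
      refine Finset.sum_congr rfl fun i _ => ?_
      rw [Nat.cast_sub (he i), Nat.cast_one]
    rw [h5, ← Nat.cast_sum, ← h1]
    push_cast
    ring
  have h6 : ((∑ i, d i : ℕ) : ℤ) ≤ (finrank ℂ (S ⧸ J) : ℤ) + δ := by exact_mod_cast h3
  rw [← h4]
  push_cast at h6
  linarith

end anchor

end

end Vale.Agent.P298.H360
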